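import Vale.Agent.Lib.P243.Defs
import Vale.Agent.Lib.P243.Bridge
import Vale.Agent.Lib.P243.Uniform
import Vale.Agent.Lib.P243.SymFinal

open scoped ENNReal

namespace Vale.Agent.Results.P243.StrictThird

open Vale.P243

/-- Bang's cylinder covering problem: the constant `1/3` of Bezdek and Litvak is never sharp,
uniformly over all convex bodies, and `5/12` is a lower bound for centrally symmetric bodies. -/
theorem result :
    (∃ ε : ℝ, 0 < ε ∧ ∀ K : Set Space, IsConvexBody K → ∀ (m : ℕ) (C : Fin m → Cylinder),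
      Covers C K →
        ENNReal.ofReal (1 / 3 + ε) ≤ relArea C K ∧
        ENNReal.ofReal (1 / 3 + ε) * minProjArea K ≤ totalArea C) ∧
    (∀ K : Set Space, IsConvexBody K → IsCentrallySymmetric K →
      ∀ (m : ℕ) (C : Fin m → Cylinder), Covers C K →
        ENNReal.ofReal (5 / 12) ≤ relArea C K ∧
        ENNReal.ofReal (5 / 12) * minProjArea K ≤ totalArea C) := by
  refine ⟨?_, ?_⟩
  · obtain ⟨ε, hε, h⟩ := Vale.Agent.Lib.P243.exists_uniform
    refine ⟨ε, hε, fun K hK m C hC => ?_⟩
    have h1 := le_relArea_of_good (h K hK.isCompact hK.convex hK.nonempty_interior) C hC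
    exact ⟨h1, (mul_le_mul_left h1 _).trans (relArea_mul_le C)⟩
  · rintro K hK ⟨p, hp⟩ m C hC
    have h0 := Vale.Agent.Lib.P243.good_sym hK.isCompact hK.convex hK.nonempty_interior hp
    have h1 := le_relArea_of_good h0 C hC
    have h2 : (1 / 3 + 1 / 12 : ℝ) = 5 / 12 := by norm_num
    rw [h2] at h1
    exact ⟨h1, (mul_le_mul_left h1 _).trans (relArea_mul_le C)⟩

end Vale.Agent.Results.P243.StrictThird
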